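import Vale.Agent.P097.H420.JCount

/-!
# P097: Hadamard three circles, moving the base point, zero counts on complex lines
-/

set_option linter.all false

open Complex Metric Filter Topology Set
open scoped ComplexConjugate

namespace Vale.Agent.P097.H420

/-- **Hadamard three circles** -/
theorem three_circles {f : ℂ → ℂ} {c : ℂ} {r₁ r r₂ R A B : ℝ} (h1 : 0 < r₁) (h12 : r₁ < r₂)
    (h2R : r₂ < R) (hr1 : r₁ ≤ r) (hr2 : r ≤ r₂) (hf : DifferentiableOn ℂ f (ball c R))
    (hA : ∀ z, ‖z - c‖ = r₁ → ‖f z‖ ≤ A) (hB : ∀ z, ‖z - c‖ = r₂ → ‖f z‖ ≤ B)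
    {z : ℂ} (hz : ‖z - c‖ = r) :
    ‖f z‖ ≤ A ^ (1 - Real.log (r / r₁) / Real.log (r₂ / r₁)) *
      B ^ (Real.log (r / r₁) / Real.log (r₂ / r₁)) := by
  have hr : 0 < r := h1.trans_le hr1
  have h2 : 0 < r₂ := h1.trans h12
  set l := Real.log r₁ with hl
  set u := Real.log r₂ with hu
  have hul : l < u := Real.log_lt_log h1 h12
  set F : ℂ → ℂ := fun ζ => f (c + exp ζ) with hF
  have hmap : MapsTo (fun ζ : ℂ => c + exp ζ) {ζ : ℂ | ζ.re < Real.log R} (ball c R) := by
    intro ζ hζ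
    rw [mem_ball, dist_eq_norm, add_sub_cancel_left, Complex.norm_exp]
    calc Real.exp ζ.re < Real.exp (Real.log R) := Real.exp_lt_exp.2 hζ
      _ = R := Real.exp_log (h2.trans h2R)
  have hopen : IsOpen {ζ : ℂ | ζ.re < Real.log R} := isOpen_lt Complex.continuous_re continuous_const
  have hFd : DifferentiableOn ℂ F {ζ : ℂ | ζ.re < Real.log R} := by
    refine hf.comp ?_ hmap
    exact (differentiable_const c |>.add Complex.differentiable_exp).differentiableOn
  have hsub : HadamardThreeLines.verticalClosedStrip l u ⊆ {ζ : ℂ | ζ.re < Real.log R} := by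
    intro ζ hζ
    have : ζ.re ≤ u := hζ.2
    exact this.trans_lt (Real.log_lt_log h2 h2R)
  have hd : DiffContOnCl ℂ F (HadamardThreeLines.verticalStrip l u) := by
    refine DifferentiableOn.diffContOnCl (hFd.mono ?_)
    have hcl : closure (HadamardThreeLines.verticalStrip l u) ⊆
        HadamardThreeLines.verticalClosedStrip l u := by
      refine closure_minimal (preimage_mono Ioo_subset_Icc_self) ?_
      exact isClosed_Icc.preimage Complex.continuous_re
    exact hcl.trans hsub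
  have hbd : BddAbove ((norm ∘ F) '' HadamardThreeLines.verticalClosedStrip l u) := by
    have hc : IsCompact (closedBall c r₂) := isCompact_closedBall _ _
    obtain ⟨C, hC⟩ := hc.exists_bound_of_continuousOn
      (hf.continuousOn.mono (closedBall_subset_ball h2R))
    refine ⟨C, ?_⟩
    rintro _ ⟨ζ, hζ, rfl⟩
    refine hC _ ?_
    rw [mem_closedBall, dist_eq_norm, add_sub_cancel_left, Complex.norm_exp]
    have : ζ.re ≤ u := hζ.2
    calc Real.exp ζ.re ≤ Real.exp u := Real.exp_le_exp.2 this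
      _ = r₂ := Real.exp_log h2
  have ha : ∀ ζ ∈ re ⁻¹' {l}, ‖F ζ‖ ≤ A := by
    intro ζ hζ
    refine hA _ ?_
    rw [add_sub_cancel_left, Complex.norm_exp, show ζ.re = l from hζ, hl, Real.exp_log h1]
  have hb : ∀ ζ ∈ re ⁻¹' {u}, ‖F ζ‖ ≤ B := by
    intro ζ hζ
    refine hB _ ?_
    rw [add_sub_cancel_left, Complex.norm_exp, show ζ.re = u from hζ, hu, Real.exp_log h2]
  have hzc : z - c ≠ 0 := norm_pos_iff.1 (by rw [hz]; exact hr)
  set ζ : ℂ := Complex.log (z - c) with hζ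
  have hre : ζ.re = Real.log r := by rw [hζ, Complex.log_re, hz]
  have hmem : ζ ∈ HadamardThreeLines.verticalClosedStrip l u := by
    show ζ.re ∈ Icc l u
    rw [hre]
    exact ⟨Real.log_le_log h1 hr1, Real.log_le_log hr hr2⟩
  have key := HadamardThreeLines.norm_le_interp_of_mem_verticalClosedStrip' hul hmem hd hbd ha hb
  have e1 : F ζ = f z := by
    rw [hF]
    simp only
    rw [hζ, Complex.exp_log hzc]
    congr 1
    ring
  rw [e1, hre] at key
  rw [Real.log_div hr.ne' h1.ne', Real.log_div h2.ne' h1.ne']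
  exact key

/-- **moving the base point**: `‖G‖ ≤ M` on `ball w ρ`, `b` within `ρ/4` of `w`: within `ρ/16` of `b`
there is a point at which `‖G‖ / M ≥ (‖G w‖ / M)³` -/
theorem move {G : ℂ → ℂ} {w b : ℂ} {ρ M : ℝ} (hρ : 0 < ρ) (hG : DifferentiableOn ℂ G (ball w ρ))
    (hM : ∀ z ∈ ball w ρ, ‖G z‖ ≤ M) (hb : ‖b - w‖ ≤ ρ / 4) :
    ∃ w', ‖w' - b‖ ≤ ρ / 16 ∧ (‖G w‖ / M) ^ 3 * M ≤ ‖G w'‖ := by
  have hM0 : 0 ≤ M := (norm_nonneg _).trans (hM w (mem_ball_self hρ))
  rcases hM0.eq_or_lt with h0 | hMp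
  · refine ⟨b, by simp; positivity, ?_⟩
    rw [← h0]; simp
  set a := ‖G w‖ / M with ha
  have ha0 : 0 ≤ a := by positivity
  have ha1 : a ≤ 1 := by
    rw [ha, div_le_one hMp]; exact hM w (mem_ball_self hρ)
  rcases le_or_gt ‖b - w‖ (ρ / 16) with hbw | hbw
  · refine ⟨w, by rw [norm_sub_rev]; exact hbw, ?_⟩
    calc a ^ 3 * M ≤ a * M := by
          gcongr
          nlinarith [mul_nonneg ha0 ha0]
      _ = ‖G w‖ := by rw [ha]; field_simp
  · by_contra hcon
    push Not at hcon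
    have hsub : ball b (3 * ρ / 4) ⊆ ball w ρ := by
      intro z hz
      rw [mem_ball, dist_eq_norm] at hz ⊢
      calc ‖z - w‖ = ‖(z - b) + (b - w)‖ := by congr 1; ring
        _ ≤ ‖z - b‖ + ‖b - w‖ := norm_add_le _ _
        _ < ρ := by linarith
    have hwb : ‖w - b‖ = ‖b - w‖ := norm_sub_rev _ _
    have key := three_circles (f := G) (c := b) (r₁ := ρ / 16) (r := ‖b - w‖) (r₂ := ρ / 2)
      (R := 3 * ρ / 4) (A := a ^ 3 * M) (B := M) (by positivity) (by linarith) (by linarith)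
      hbw.le (by linarith) (hG.mono hsub) (fun z hz => (hcon z hz.le).le)
      (fun z hz => hM z (hsub (by rw [mem_ball, dist_eq_norm, hz]; linarith))) hwb
    set t := Real.log (‖b - w‖ / (ρ / 16)) / Real.log (ρ / 2 / (ρ / 16)) with ht
    have e8 : ρ / 2 / (ρ / 16) = 8 := by field_simp; norm_num
    have hl8 : Real.log 8 = 3 * Real.log 2 := by
      rw [show (8 : ℝ) = 2 ^ 3 by norm_num, Real.log_pow]; norm_num
    have hl2 : 0 < Real.log 2 := Real.log_pos (by norm_num)
    have ht0 : 0 ≤ t := by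
      rw [ht, e8]
      refine div_nonneg (Real.log_nonneg ?_) (by rw [hl8]; positivity)
      rw [le_div_iff₀ (by positivity)]; linarith
    have ht1 : t ≤ 2 / 3 := by
      rw [ht, e8, hl8, div_le_iff₀ (by positivity)]
      have h4 : Real.log (‖b - w‖ / (ρ / 16)) ≤ Real.log 4 := by
        refine Real.log_le_log (div_pos ((by positivity : (0 : ℝ) < ρ / 16).trans hbw)
          (by positivity)) ?_
        rw [div_le_iff₀ (by positivity)]; linarith
      have : Real.log 4 = 2 * Real.log 2 := by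
        rw [show (4 : ℝ) = 2 ^ 2 by norm_num, Real.log_pow]; norm_num
      rw [this] at h4
      linarith
    -- the bound at w is `a³^(1-t) M`, with a^(3(1-t)) ≤ a; strictness from the compact circle
    have hstr : ∃ A' < a ^ 3 * M, ∀ z, ‖z - b‖ = ρ / 16 → ‖G z‖ ≤ A' := by
      have hcs : IsCompact (sphere b (ρ / 16)) := isCompact_sphere _ _
      have hne : (sphere b (ρ / 16)).Nonempty := NormedSpace.sphere_nonempty.2 (by positivity)
      have hcn : ContinuousOn (fun z => ‖G z‖) (sphere b (ρ / 16)) := by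
        refine (hG.continuousOn.mono ?_).norm
        intro z hz
        refine hsub ?_
        rw [mem_ball, dist_eq_norm, ← dist_eq_norm, mem_sphere.1 hz]
        linarith
      obtain ⟨z₀, hz₀, hmax⟩ := hcs.exists_isMaxOn hne hcn
      refine ⟨‖G z₀‖, hcon z₀ (by rw [← dist_eq_norm]; exact (mem_sphere.1 hz₀).le), ?_⟩
      intro z hz
      exact hmax (by rw [mem_sphere, dist_eq_norm]; exact hz : z ∈ sphere b (ρ / 16))
    obtain ⟨A', hA', hA'2⟩ := hstr
    obtain ⟨z₁, hz₁⟩ : (sphere b (ρ / 16)).Nonempty := NormedSpace.sphere_nonempty.2 (by positivity)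
    have hA'0 : 0 ≤ A' := (norm_nonneg _).trans (hA'2 z₁ (by rw [← dist_eq_norm]; exact hz₁))
    have hap : 0 < a := by
      rcases ha0.eq_or_lt with h | h
      · rw [← h] at hA'; simp at hA'; linarith
      · exact h
    have key2 := three_circles (f := G) (c := b) (r₁ := ρ / 16) (r := ‖b - w‖) (r₂ := ρ / 2)
      (R := 3 * ρ / 4) (A := A') (B := M) (by positivity) (by linarith) (by linarith)
      hbw.le (by linarith) (hG.mono hsub) hA'2
      (fun z hz => hM z (hsub (by rw [mem_ball, dist_eq_norm, hz]; linarith))) hwb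
    rw [← ht] at key2
    have h1t : 0 < 1 - t := by linarith
    have s1 : A' ^ (1 - t) * M ^ t < (a ^ 3 * M) ^ (1 - t) * M ^ t := by
      have := Real.rpow_lt_rpow hA'0 hA' h1t
      have hMt : 0 < M ^ t := Real.rpow_pos_of_pos hMp t
      exact mul_lt_mul_of_pos_right this hMt
    have s2 : (a ^ 3 * M) ^ (1 - t) * M ^ t = (a ^ 3) ^ (1 - t) * M := by
      rw [Real.mul_rpow (by positivity) hMp.le, mul_assoc, ← Real.rpow_add hMp]
      norm_num
    have s3 : (a ^ 3) ^ (1 - t) ≤ a := by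
      rw [← Real.rpow_natCast, ← Real.rpow_mul ha0]
      calc a ^ (((3 : ℕ) : ℝ) * (1 - t)) ≤ a ^ (1 : ℝ) :=
            Real.rpow_le_rpow_of_exponent_ge hap ha1 (by push_cast; linarith)
        _ = a := Real.rpow_one a
    have s4 : a * M = ‖G w‖ := by rw [ha]; field_simp
    have : ‖G w‖ < ‖G w‖ := by
      calc ‖G w‖ ≤ A' ^ (1 - t) * M ^ t := key2
        _ < (a ^ 3) ^ (1 - t) * M := by rw [← s2]; exact s1
        _ ≤ a * M := by gcongr
        _ = ‖G w‖ := s4
    exact lt_irrefl _ this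

variable {V : Type*} [NormedAddCommGroup V] [NormedSpace ℂ V]

/-- zero count on a complex line: `w + t v`, `‖v‖ = 1` not needed: the disc `‖t‖ < R` is mapped into
the domain `U` -/
theorem jcount_line {U : Set V} {G : V → ℂ} {w v : V} {R M θ : ℝ} {t₀ : ℂ} (hR : 0 < R)
    (h0 : 0 < θ) (h1 : θ < 1) (hG : DifferentiableOn ℂ G U) (hM : ∀ z ∈ U, ‖G z‖ ≤ M)
    (hU : ∀ t : ℂ, ‖t‖ < R → w + t • v ∈ U) (ht₀ : ‖t₀‖ < θ * R) (hGw : G (w + t₀ • v) ≠ 0)
    {N : ℕ} (hN : Real.log (M / ‖G (w + t₀ • v)‖) <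
      (N + 1) * Real.log ((1 + θ ^ 2) / (2 * θ))) :
    {t ∈ ball (0 : ℂ) (θ * R) | G (w + t • v) = 0}.encard ≤ N := by
  have hmap : MapsTo (fun t : ℂ => w + t • v) (ball (0 : ℂ) R) U := fun t ht =>
    hU t (mem_ball_zero_iff.1 ht)
  exact jcount (G := fun t : ℂ => G (w + t • v)) hR h0 h1 (hG.comp (by fun_prop) hmap)
    (fun z hz => hM _ (hmap hz)) (w := t₀) (mem_ball_zero_iff.2 ht₀) hGw hN

/-- `move` in a normed space -/
theorem move_V {G : V → ℂ} {w b : V} {ρ M : ℝ} (hρ : 0 < ρ) (hG : DifferentiableOn ℂ G (ball w ρ))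
    (hM : ∀ z ∈ ball w ρ, ‖G z‖ ≤ M) (hb : ‖b - w‖ ≤ ρ / 4) :
    ∃ w', ‖w' - b‖ ≤ ρ / 16 ∧ (‖G w‖ / M) ^ 3 * M ≤ ‖G w'‖ := by
  rcases eq_or_ne b w with rfl | hne
  · refine ⟨b, by simp; positivity, ?_⟩
    have hM0 : 0 ≤ M := (norm_nonneg _).trans (hM b (mem_ball_self hρ))
    rcases hM0.eq_or_lt with h0 | hMp
    · rw [← h0]; simp
    have ha1 : ‖G b‖ / M ≤ 1 := by
      rw [div_le_one hMp]; exact hM b (mem_ball_self hρ)
    have ha0 : 0 ≤ ‖G b‖ / M := by positivity
    calc (‖G b‖ / M) ^ 3 * M ≤ (‖G b‖ / M) * M := by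
          gcongr
          nlinarith [mul_nonneg ha0 ha0]
      _ = ‖G b‖ := by field_simp
  · set d := ‖b - w‖ with hd
    have hdp : 0 < d := norm_pos_iff.2 (sub_ne_zero.2 hne)
    set g : ℂ → ℂ := fun t => G (w + (t / d : ℂ) • (b - w)) with hg
    have hmap : MapsTo (fun t : ℂ => w + (t / d : ℂ) • (b - w)) (ball (0 : ℂ) ρ) (ball w ρ) := by
      intro t ht
      rw [mem_ball_zero_iff] at ht
      rw [mem_ball, dist_eq_norm, add_sub_cancel_left, norm_smul, norm_div, Complex.norm_real,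
        Real.norm_of_nonneg hdp.le, ← hd, div_mul_cancel₀ _ hdp.ne']
      exact ht
    obtain ⟨t, ht1, ht2⟩ := move (G := g) (w := 0) (b := (d : ℂ)) (ρ := ρ) (M := M) hρ
      (hG.comp (by fun_prop) hmap) (fun z hz => hM _ (hmap hz))
      (by rw [sub_zero, Complex.norm_real, Real.norm_of_nonneg hdp.le]; exact hb)
    refine ⟨w + (t / d : ℂ) • (b - w), ?_, ?_⟩
    · have e : w + (t / d : ℂ) • (b - w) - b = ((t - d) / d : ℂ) • (b - w) := by
        have hd' : (d : ℂ) ≠ 0 := by exact_mod_cast hdp.ne'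
        rw [sub_div, div_self hd', sub_smul, one_smul]
        abel
      rw [e, norm_smul, norm_div, Complex.norm_real, Real.norm_of_nonneg hdp.le, ← hd,
        div_mul_cancel₀ _ hdp.ne']
      exact ht1
    · have e0 : g 0 = G w := by simp [hg]
      rw [e0] at ht2
      exact ht2

end Vale.Agent.P097.H420
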