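import Mathlib

/-!
# P097: counting zeros of a bounded holomorphic function (Blaschke / Jensen form)

`prod_bound`: `‖f w‖ ≤ M ∏ |(w - a) / (1 - conj a w)|` over distinct zeros `a` of `f`.
`jcount`: the number of distinct zeros in the ball of radius `θ R` is at most `N` as soon as
`log (M / ‖G w‖) ≤ N log ((1 + θ²) / (2 θ))` for one `w` in this ball.
-/

set_option linter.all false

open Complex Metric Filter Topology Set
open scoped ComplexConjugate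

namespace Vale.Agent.P097.H420

/-- the pseudo hyperbolic distance -/
noncomputable def ph (a w : ℂ) : ℝ := ‖w - a‖ / ‖1 - conj a * w‖

theorem one_sub_ne {a w : ℂ} (ha : ‖a‖ < 1) (hw : ‖w‖ < 1) : 1 - conj a * w ≠ 0 := by
  intro h
  have h1 : conj a * w = 1 := by linear_combination -h
  have h2 : ‖a‖ * ‖w‖ = 1 := by rw [← Complex.norm_conj a, ← norm_mul, h1, norm_one]
  nlinarith [norm_nonneg a, norm_nonneg w]

theorem ident (a w : ℂ) : ‖1 - conj a * w‖ ^ 2 - ‖w - a‖ ^ 2 = (1 - ‖a‖ ^ 2) * (1 - ‖w‖ ^ 2) := by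
  rw [← Complex.normSq_eq_norm_sq, ← Complex.normSq_eq_norm_sq, ← Complex.normSq_eq_norm_sq,
    ← Complex.normSq_eq_norm_sq, normSq_apply, normSq_apply, normSq_apply, normSq_apply]
  simp only [sub_re, sub_im, one_re, one_im, mul_re, mul_im, conj_re, conj_im]
  ring

theorem ph_nonneg (a w : ℂ) : 0 ≤ ph a w := div_nonneg (norm_nonneg _) (norm_nonneg _)

theorem ph_lt {a w : ℂ} (ha : ‖a‖ < 1) (hw : ‖w‖ < 1) : ph a w < 1 := by
  have h1 : 0 < ‖1 - conj a * w‖ := norm_pos_iff.2 (one_sub_ne ha hw)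
  rw [ph, div_lt_one h1]
  have h2 := ident a w
  have h3 : 0 < (1 - ‖a‖ ^ 2) * (1 - ‖w‖ ^ 2) := by
    have := norm_nonneg a
    have := norm_nonneg w
    apply mul_pos <;> nlinarith
  nlinarith [norm_nonneg (w - a)]

/-- `ph a w ≥ (r - |a|) / (1 - r |a|)` for `|w| = r` -/
theorem ph_ge {a w : ℂ} (ha : ‖a‖ < 1) (hw : ‖w‖ < 1) (haw : ‖a‖ ≤ ‖w‖) :
    (‖w‖ - ‖a‖) / (1 - ‖w‖ * ‖a‖) ≤ ph a w := by
  set r := ‖w‖ with hr
  set s := ‖a‖ with hs
  have h1 : 0 < ‖1 - conj a * w‖ := norm_pos_iff.2 (one_sub_ne ha hw)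
  have hs0 : 0 ≤ s := norm_nonneg _
  have hr0 : 0 ≤ r := norm_nonneg _
  have h0 : 0 < 1 - r * s := by nlinarith
  rw [ph, div_le_div_iff₀ h0 h1]
  have h2 := ident a w
  rw [← hr, ← hs] at h2
  have h3 : ‖1 - conj a * w‖ ≤ 1 + r * s := by
    refine (norm_sub_le _ _).trans ?_
    rw [norm_one, norm_mul, Complex.norm_conj, ← hr, ← hs]
    linarith [mul_comm r s]
  have h4 : r - s ≤ ‖w - a‖ := by
    have := norm_sub_norm_le w a
    rwa [← hr, ← hs] at this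
  have h5 : 1 - r * s ≤ ‖1 - conj a * w‖ := by
    have := norm_sub_norm_le (1 : ℂ) (conj a * w)
    rw [norm_one, norm_mul, Complex.norm_conj, ← hr, ← hs] at this
    linarith [mul_comm r s]
  set x := ‖1 - conj a * w‖ with hx
  set y := ‖w - a‖ with hy
  have hy0 : 0 ≤ y := norm_nonneg _
  -- ((r-s) x)² ≤ (y (1 - rs))²
  have h6 : ((r - s) * x) ^ 2 ≤ (y * (1 - r * s)) ^ 2 := by
    have e1 : (y * (1 - r * s)) ^ 2 - ((r - s) * x) ^ 2 =
        (1 - s ^ 2) * (1 - r ^ 2) * (x ^ 2 - (1 - r * s) ^ 2) := by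
      have : y ^ 2 = x ^ 2 - (1 - s ^ 2) * (1 - r ^ 2) := by linarith
      rw [mul_pow, mul_pow, this]
      ring
    have e2 : 0 ≤ (1 - s ^ 2) * (1 - r ^ 2) * (x ^ 2 - (1 - r * s) ^ 2) := by
      refine mul_nonneg (mul_nonneg ?_ ?_) ?_ <;> nlinarith
    linarith
  exact le_of_sq_le_sq' h6 (by positivity)
where
  le_of_sq_le_sq' {u v : ℝ} (h : u ^ 2 ≤ v ^ 2) (hv : 0 ≤ v) : u ≤ v := by
    by_contra hc
    rw [not_le] at hc
    nlinarith

/-- dividing out one zero -/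
theorem divide_zero {f : ℂ → ℂ} {M : ℝ} (hf : DifferentiableOn ℂ f (ball 0 1))
    (hM : ∀ z ∈ ball (0 : ℂ) 1, ‖f z‖ ≤ M) {a : ℂ} (ha : a ∈ ball (0 : ℂ) 1) (h0 : f a = 0) :
    ∃ g : ℂ → ℂ, DifferentiableOn ℂ g (ball 0 1) ∧ (∀ z ∈ ball (0 : ℂ) 1, ‖g z‖ ≤ M) ∧
      ∀ z ∈ ball (0 : ℂ) 1, ‖f z‖ = ph a z * ‖g z‖ := by
  have ha1 : ‖a‖ < 1 := mem_ball_zero_iff.1 ha
  have hM0 : 0 ≤ M := (norm_nonneg _).trans (hM a ha)
  set g : ℂ → ℂ := fun z => (1 - conj a * z) * dslope f a z with hg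
  have hgd : DifferentiableOn ℂ g (ball 0 1) :=
    (by fun_prop : DifferentiableOn ℂ (fun z : ℂ => 1 - conj a * z) (ball 0 1)).mul
      ((Complex.differentiableOn_dslope (isOpen_ball.mem_nhds ha)).2 hf)
  have hfg : ∀ z ∈ ball (0 : ℂ) 1, ‖f z‖ = ph a z * ‖g z‖ := by
    intro z hz
    have hz1 : ‖z‖ < 1 := mem_ball_zero_iff.1 hz
    have h1 : f z = (z - a) * dslope f a z := by
      have := sub_smul_dslope f a z
      rw [h0, sub_zero, smul_eq_mul] at this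
      exact this.symm
    have h2 : ‖1 - conj a * z‖ ≠ 0 := norm_ne_zero_iff.2 (one_sub_ne ha1 hz1)
    rw [h1, hg, ph]
    simp only [norm_mul]
    rw [div_mul_eq_mul_div, eq_div_iff h2]
    ring
  refine ⟨g, hgd, fun w hw => ?_, hfg⟩
  have hw1 : ‖w‖ < 1 := mem_ball_zero_iff.1 hw
  -- bound on circles of radius r close to 1
  have hev : ∀ᶠ r : ℝ in 𝓝[<] 1, ‖g w‖ * ((r - ‖a‖) / (1 - r * ‖a‖)) ≤ M := by
    have e1 : ∀ᶠ r : ℝ in 𝓝[<] 1, ‖w‖ < r := nhdsWithin_le_nhds (eventually_gt_nhds hw1)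
    have e2 : ∀ᶠ r : ℝ in 𝓝[<] 1, ‖a‖ < r := nhdsWithin_le_nhds (eventually_gt_nhds ha1)
    have e3 : ∀ᶠ r : ℝ in 𝓝[<] 1, r < 1 := self_mem_nhdsWithin
    filter_upwards [e1, e2, e3] with r h1 h2 h3
    have hr0 : 0 < r := (norm_nonneg a).trans_lt h2
    have hpos : 0 < (r - ‖a‖) / (1 - r * ‖a‖) := by
      refine div_pos (by linarith) ?_
      nlinarith [norm_nonneg a]
    rw [← le_div_iff₀ hpos]
    have hdc : DiffContOnCl ℂ g (ball 0 r) := by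
      refine DifferentiableOn.diffContOnCl ?_
      refine hgd.mono ?_
      rw [closure_ball _ hr0.ne']
      exact closedBall_subset_ball h3
    refine Complex.norm_le_of_forall_mem_frontier_norm_le isBounded_ball hdc ?_
      (subset_closure (mem_ball_zero_iff.2 h1))
    intro z hz
    rw [frontier_ball _ hr0.ne', mem_sphere_zero_iff_norm] at hz
    have hzb : z ∈ ball (0 : ℂ) 1 := mem_ball_zero_iff.2 (by rw [hz]; exact h3)
    have h4 := ph_ge ha1 (by rw [hz]; exact h3) (by rw [hz]; exact h2.le) (w := z)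
    rw [hz] at h4
    rw [le_div_iff₀ hpos]
    calc ‖g z‖ * ((r - ‖a‖) / (1 - r * ‖a‖)) ≤ ‖g z‖ * ph a z := by gcongr
      _ = ‖f z‖ := by rw [hfg z hzb]; ring
      _ ≤ M := hM z hzb
  have ht : Tendsto (fun r : ℝ => ‖g w‖ * ((r - ‖a‖) / (1 - r * ‖a‖))) (𝓝[<] 1) (𝓝 ‖g w‖) := by
    have h1 : (1 : ℝ) - 1 * ‖a‖ ≠ 0 := by
      rw [one_mul]; linarith
    have : ContinuousAt (fun r : ℝ => ‖g w‖ * ((r - ‖a‖) / (1 - r * ‖a‖))) 1 := by
      refine continuousAt_const.mul (ContinuousAt.div (by fun_prop) (by fun_prop) h1)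
    have h2 := this.tendsto.mono_left (nhdsWithin_le_nhds (s := Iio 1))
    have h3 : ‖g w‖ * ((1 - ‖a‖) / (1 - 1 * ‖a‖)) = ‖g w‖ := by
      rw [one_mul] at h1 ⊢
      rw [div_self h1, mul_one]
    rwa [h3] at h2
  exact le_of_tendsto ht hev

/-- **Blaschke bound** -/
theorem prod_bound (S : Finset ℂ) : ∀ {f : ℂ → ℂ} {M : ℝ}, DifferentiableOn ℂ f (ball 0 1) →
    (∀ z ∈ ball (0 : ℂ) 1, ‖f z‖ ≤ M) → (∀ a ∈ S, a ∈ ball (0 : ℂ) 1 ∧ f a = 0) →
    ∀ w ∈ ball (0 : ℂ) 1, ‖f w‖ ≤ M * ∏ a ∈ S, ph a w := by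
  classical
  induction S using Finset.induction_on with
  | empty =>
    intro f M _ hM _ w hw
    simpa using hM w hw
  | insert a S haS ih =>
    intro f M hf hM hz w hw
    obtain ⟨ha, ha0⟩ := hz a (Finset.mem_insert_self _ _)
    obtain ⟨g, hg1, hg2, hg3⟩ := divide_zero hf hM ha ha0
    have key := ih hg1 hg2 (fun b hb => by
      obtain ⟨hb1, hb0⟩ := hz b (Finset.mem_insert_of_mem hb)
      refine ⟨hb1, ?_⟩
      have h1 := hg3 b hb1
      rw [hb0, norm_zero] at h1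
      have hba : b ≠ a := fun h => haS (h ▸ hb)
      have h2 : ph a b ≠ 0 := by
        rw [ph]
        refine div_ne_zero (norm_ne_zero_iff.2 (sub_ne_zero.2 hba)) (norm_ne_zero_iff.2
          (one_sub_ne (mem_ball_zero_iff.1 ha) (mem_ball_zero_iff.1 hb1)))
      exact norm_eq_zero.1 ((mul_eq_zero.1 h1.symm).resolve_left h2)) w hw
    rw [Finset.prod_insert haS, hg3 w hw]
    calc ph a w * ‖g w‖ ≤ ph a w * (M * ∏ b ∈ S, ph b w) :=
          mul_le_mul_of_nonneg_left key (ph_nonneg _ _)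
      _ = M * (ph a w * ∏ b ∈ S, ph b w) := by ring

theorem ph_le {a w : ℂ} {θ : ℝ} (hθ : θ < 1) (ha : ‖a‖ ≤ θ) (hw : ‖w‖ ≤ θ) :
    ph a w ≤ 2 * θ / (1 + θ ^ 2) := by
  have hθ0 : 0 ≤ θ := (norm_nonneg a).trans ha
  have ha1 : ‖a‖ < 1 := ha.trans_lt hθ
  have hw1 : ‖w‖ < 1 := hw.trans_lt hθ
  have h1 : 0 < ‖1 - conj a * w‖ := norm_pos_iff.2 (one_sub_ne ha1 hw1)
  rw [ph, div_le_div_iff₀ h1 (by positivity)]
  have h2 := ident a w
  set x := ‖1 - conj a * w‖ with hx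
  set y := ‖w - a‖ with hy
  have hx2 : x ≤ 1 + θ ^ 2 := by
    refine (norm_sub_le _ _).trans ?_
    rw [norm_one, norm_mul, Complex.norm_conj]
    have : ‖a‖ * ‖w‖ ≤ θ * θ := mul_le_mul ha hw (norm_nonneg _) hθ0
    nlinarith
  have h3 : (1 - θ ^ 2) ^ 2 ≤ (1 - ‖a‖ ^ 2) * (1 - ‖w‖ ^ 2) := by
    have e1 : ‖a‖ ^ 2 ≤ θ ^ 2 := pow_le_pow_left₀ (norm_nonneg _) ha 2
    have e2 : ‖w‖ ^ 2 ≤ θ ^ 2 := pow_le_pow_left₀ (norm_nonneg _) hw 2
    have e3 : 0 ≤ 1 - θ ^ 2 := by nlinarith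
    nlinarith
  have h4 : (y * (1 + θ ^ 2)) ^ 2 ≤ (2 * θ * x) ^ 2 := by
    have e1 : y ^ 2 ≤ x ^ 2 - (1 - θ ^ 2) ^ 2 := by linarith
    have e2 : x ^ 2 ≤ (1 + θ ^ 2) ^ 2 := pow_le_pow_left₀ h1.le hx2 2
    have e3 : (y * (1 + θ ^ 2)) ^ 2 ≤ (x ^ 2 - (1 - θ ^ 2) ^ 2) * (1 + θ ^ 2) ^ 2 := by
      rw [mul_pow]; gcongr
    have e4 : (2 * θ * x) ^ 2 - (x ^ 2 - (1 - θ ^ 2) ^ 2) * (1 + θ ^ 2) ^ 2 =
        (1 - θ ^ 2) ^ 2 * ((1 + θ ^ 2) ^ 2 - x ^ 2) := by ring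
    have e5 : 0 ≤ (1 - θ ^ 2) ^ 2 * ((1 + θ ^ 2) ^ 2 - x ^ 2) :=
      mul_nonneg (sq_nonneg _) (by linarith)
    linarith
  by_contra hc
  rw [not_le] at hc
  have : 0 ≤ 2 * θ * x := by positivity
  nlinarith

/-- **zero count** (Jensen): distinct zeros in the ball of radius `θ R`, base point `w` anywhere in
this ball -/
theorem jcount {G : ℂ → ℂ} {c w : ℂ} {R M θ : ℝ} (hR : 0 < R) (h0 : 0 < θ) (h1 : θ < 1)
    (hG : DifferentiableOn ℂ G (ball c R)) (hM : ∀ z ∈ ball c R, ‖G z‖ ≤ M)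
    (hw : w ∈ ball c (θ * R)) (hGw : G w ≠ 0) {N : ℕ}
    (hN : Real.log (M / ‖G w‖) < (N + 1) * Real.log ((1 + θ ^ 2) / (2 * θ))) :
    {z ∈ ball c (θ * R) | G z = 0}.encard ≤ N := by
  classical
  by_contra hcon
  rw [not_le] at hcon
  obtain ⟨T, hT, hTc⟩ := exists_subset_encard_eq (Order.add_one_le_of_lt hcon)
  have hTf : T.Finite := finite_of_encard_eq_coe (k := N + 1) (by rw [hTc]; norm_cast)
  obtain ⟨S₀, rfl⟩ := hTf.exists_finset_coe
  have hcard : S₀.card = N + 1 := by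
    rw [encard_coe_eq_coe_finsetCard] at hTc
    exact_mod_cast hTc
  set f : ℂ → ℂ := fun z => G (c + R * z) with hf
  have hmap : ∀ z ∈ ball (0 : ℂ) 1, c + R * z ∈ ball c R := by
    intro z hz
    rw [mem_ball_zero_iff] at hz
    rw [mem_ball, dist_eq_norm, add_sub_cancel_left, norm_mul, Complex.norm_real,
      Real.norm_of_nonneg hR.le]
    nlinarith
  have hfd : DifferentiableOn ℂ f (ball 0 1) := hG.comp (by fun_prop) hmap
  have hinj : Function.Injective fun z : ℂ => (z - c) / R := by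
    intro x y hxy
    have hR' : (R : ℂ) ≠ 0 := by exact_mod_cast hR.ne'
    simp only at hxy
    rw [div_left_inj' hR'] at hxy
    linear_combination hxy
  set S := S₀.image fun z : ℂ => (z - c) / R with hS
  have hSc : S.card = N + 1 := by rw [hS, Finset.card_image_of_injective _ hinj, hcard]
  have hR' : (R : ℂ) ≠ 0 := by exact_mod_cast hR.ne'
  have hback : ∀ z : ℂ, c + R * ((z - c) / R) = z := by
    intro z
    field_simp
    ring
  have hnorm : ∀ z ∈ ball c (θ * R), ‖(z - c) / R‖ ≤ θ := by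
    intro z hz
    rw [mem_ball, dist_eq_norm] at hz
    rw [norm_div, Complex.norm_real, Real.norm_of_nonneg hR.le, div_le_iff₀ hR]
    exact hz.le
  have hSz : ∀ a ∈ S, ‖a‖ ≤ θ ∧ f a = 0 := by
    intro a ha
    obtain ⟨z, hz, rfl⟩ := Finset.mem_image.1 ha
    obtain ⟨hz1, hz2⟩ := hT (Finset.mem_coe.2 hz)
    refine ⟨hnorm z hz1, ?_⟩
    rw [hf]
    simp only
    rw [hback, hz2]
  have hw' := hnorm w hw
  have hfw : f ((w - c) / R) = G w := by rw [hf]; simp only; rw [hback]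
  have key := prod_bound S hfd (fun z hz => hM _ (hmap z hz)) (fun a ha =>
    ⟨mem_ball_zero_iff.2 ((hSz a ha).1.trans_lt h1), (hSz a ha).2⟩) ((w - c) / R)
    (mem_ball_zero_iff.2 (hw'.trans_lt h1))
  rw [hfw] at key
  have hM0 : 0 ≤ M := (norm_nonneg _).trans (hM w (ball_subset_ball (by nlinarith) hw))
  have hprod : ∏ a ∈ S, ph a ((w - c) / R) ≤ (2 * θ / (1 + θ ^ 2)) ^ (N + 1) := by
    rw [← hSc]
    exact (Finset.prod_le_prod (fun a _ => ph_nonneg _ _) (fun a ha => ph_le h1 (hSz a ha).1 hw')).trans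
      (by rw [Finset.prod_const])
  have hGp : 0 < ‖G w‖ := norm_pos_iff.2 hGw
  have hMp : 0 < M := by
    rcases hM0.eq_or_lt with h | h
    · rw [← h, zero_mul] at key; linarith
    · exact h
  have hq : 0 < 2 * θ / (1 + θ ^ 2) := by positivity
  have h5 : ‖G w‖ ≤ M * (2 * θ / (1 + θ ^ 2)) ^ (N + 1) :=
    key.trans (mul_le_mul_of_nonneg_left hprod hM0)
  have h6 : ((1 + θ ^ 2) / (2 * θ)) ^ (N + 1) ≤ M / ‖G w‖ := by
    rw [le_div_iff₀ hGp]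
    have e1 : ((1 + θ ^ 2) / (2 * θ)) ^ (N + 1) * (2 * θ / (1 + θ ^ 2)) ^ (N + 1) = 1 := by
      rw [← mul_pow]
      have : (1 + θ ^ 2) / (2 * θ) * (2 * θ / (1 + θ ^ 2)) = 1 := by field_simp
      rw [this, one_pow]
    calc ((1 + θ ^ 2) / (2 * θ)) ^ (N + 1) * ‖G w‖
        ≤ ((1 + θ ^ 2) / (2 * θ)) ^ (N + 1) * (M * (2 * θ / (1 + θ ^ 2)) ^ (N + 1)) := by gcongr
      _ = M * (((1 + θ ^ 2) / (2 * θ)) ^ (N + 1) * (2 * θ / (1 + θ ^ 2)) ^ (N + 1)) := by ring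
      _ = M := by rw [e1, mul_one]
  have h7 := Real.log_le_log (by positivity) h6
  rw [Real.log_pow] at h7
  push_cast at h7
  linarith

end Vale.Agent.P097.H420
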