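import Mathlib

/-!
# P097: uniform simple roots

`I (c, x)` analytic near `C × {x₀}`, `C` compact, `x₀` a simple root of `I (c, ·)` for every
`c ∈ C`: then for all parameters `c` in a thickening of `C` there is exactly one root in a fixed
ball round `x₀`, it is simple and depends analytically on `c`. Consequence: a family of holomorphic
roots which tends to `x₀` on a part of a compact set continues to the whole set.
-/

set_option linter.all false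

open Complex Metric Filter Topology Set
open scoped ContDiff

namespace Vale.Agent.P097.H420

variable {P : Type*} [NormedAddCommGroup P] [NormedSpace ℂ P] [CompleteSpace P]

/-- derivative in the second variable, as a function of the pair -/
theorem deriv_snd {I : P × ℂ → ℂ} {v : P × ℂ} (h : DifferentiableAt ℂ I v) :
    deriv (fun x => I (v.1, x)) v.2 = fderiv ℂ I v (0, 1) := by
  have h1 : HasFDerivAt I (fderiv ℂ I v) (v.1, v.2) := h.hasFDerivAt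
  have h2 : HasDerivAt (fun x : ℂ => ((v.1, x) : P × ℂ)) (0, 1) v.2 :=
    (hasDerivAt_const v.2 v.1).prodMk (hasDerivAt_id v.2)
  exact (h1.comp_hasDerivAt v.2 h2).deriv

/-- the local form -/
theorem loc_root {I : P × ℂ → ℂ} {c₀ : P} {x₀ : ℂ} (hI : AnalyticAt ℂ I (c₀, x₀))
    (h0 : I (c₀, x₀) = 0) (h1 : deriv (fun x => I (c₀, x)) x₀ ≠ 0) :
    ∃ r > 0, ∃ X : P → ℂ, X c₀ = x₀ ∧ ∀ᶠ c in 𝓝 c₀, AnalyticAt ℂ X c ∧ I (c, X c) = 0 ∧
      ∀ x ∈ ball x₀ r, deriv (fun x => I (c, x)) x ≠ 0 ∧ (I (c, x) = 0 → x = X c) := by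
  have hC : ContDiffAt ℂ ω I (c₀, x₀) := hI.contDiffAt
  have hn : (ω : WithTop ℕ∞) ≠ 0 := by simp
  have hd : fderiv ℂ I (c₀, x₀) (0, 1) ≠ 0 := by
    rw [← deriv_snd (v := (c₀, x₀)) hI.differentiableAt]; exact h1
  have hinv : (fderiv ℂ I (c₀, x₀) ∘L .inr ℂ P ℂ).IsInvertible := by
    have e : fderiv ℂ I (c₀, x₀) ∘L .inr ℂ P ℂ =
        (fderiv ℂ I (c₀, x₀) (0, 1)) • ContinuousLinearMap.id ℂ ℂ := by
      ext
      simp
    rw [e]
    refine ⟨ContinuousLinearEquiv.unitsEquivAut ℂ (Units.mk0 _ hd), ?_⟩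
    ext
    simp
  set X := hC.implicitFunction hn hinv with hX
  have e0 : X c₀ = x₀ := hC.implicitFunction_apply_self hn hinv
  have e1 : ∀ᶠ c in 𝓝 c₀, I (c, X c) = 0 := by
    filter_upwards [hC.eventually_apply_implicitFunction hn hinv] with c hc
    rw [hX, hc, h0]
  have e2 : ∀ᶠ v in 𝓝 (c₀, x₀), I v = I (c₀, x₀) ↔ X v.1 = v.2 :=
    hC.eventually_apply_eq_iff_implicitFunction hn hinv
  have e3 : AnalyticAt ℂ X c₀ := (hC.contDiffAt_implicitFunction hn hinv).analyticAt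
  have e4 : ∀ᶠ v in 𝓝 (c₀, x₀), deriv (fun x => I (v.1, x)) v.2 ≠ 0 := by
    have c1 : ContinuousAt (fun v => fderiv ℂ I v (0, 1)) (c₀, x₀) :=
      (hI.fderiv.continuousAt).clm_apply continuousAt_const
    filter_upwards [c1.eventually_ne hd, hI.eventually_analyticAt] with v hv1 hv2
    rw [deriv_snd hv2.differentiableAt]; exact hv1
  obtain ⟨U, hU, r, hr, hUr⟩ : ∃ U ∈ 𝓝 c₀, ∃ r > 0, ∀ c ∈ U, ∀ x ∈ ball x₀ r,
      (I (c, x) = I (c₀, x₀) ↔ X c = x) ∧ deriv (fun x => I (c, x)) x ≠ 0 := by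
    have := (e2.and e4)
    rw [nhds_prod_eq] at this
    obtain ⟨U, hU, V, hV, h⟩ := Filter.eventually_prod_iff.1 this
    obtain ⟨r, hr, hr'⟩ := Metric.mem_nhds_iff.1 hV
    exact ⟨{c | U c}, hU, r, hr, fun c hc x hx => h hc (hr' hx)⟩
  refine ⟨r, hr, X, e0, ?_⟩
  filter_upwards [e1, e3.eventually_analyticAt, hU] with c h2 h3 h4
  refine ⟨h3, h2, fun x hx => ⟨(hUr c h4 x hx).2, fun h5 => ?_⟩⟩
  exact ((hUr c h4 x hx).1.1 (by rw [h5, h0])).symm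

/-- **uniform simple root**: exactly one root in a fixed ball round `x₀`, for all parameters in a
thickening of the compact set `C` -/
theorem unif_root {I : P × ℂ → ℂ} {C : Set P} (hC : IsCompact C) {x₀ : ℂ}
    (hI : ∀ c ∈ C, AnalyticAt ℂ I (c, x₀)) (h0 : ∀ c ∈ C, I (c, x₀) = 0)
    (h1 : ∀ c ∈ C, deriv (fun x => I (c, x)) x₀ ≠ 0) {δ₀ : ℝ} (hδ₀ : 0 < δ₀) :
    ∃ δ > 0, δ ≤ δ₀ ∧ ∃ ε > 0, ∃ X : P → ℂ, ∀ c ∈ thickening ε C, AnalyticAt ℂ X c ∧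
      X c ∈ ball x₀ δ ∧ I (c, X c) = 0 ∧
      ∀ x ∈ ball x₀ δ, deriv (fun x => I (c, x)) x ≠ 0 ∧ (I (c, x) = 0 → x = X c) := by
  classical
  rcases C.eq_empty_or_nonempty with rfl | hne
  · exact ⟨δ₀, hδ₀, le_rfl, 1, one_pos, fun _ => 0, by simp⟩
  have hl : ∀ c ∈ C, ∃ (U : Set P) (r : ℝ) (X : P → ℂ), IsOpen U ∧ c ∈ U ∧ 0 < r ∧ ∀ c' ∈ U,
      AnalyticAt ℂ X c' ∧ I (c', X c') = 0 ∧
      ∀ x ∈ ball x₀ r, deriv (fun x => I (c', x)) x ≠ 0 ∧ (I (c', x) = 0 → x = X c') := by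
    intro c hc
    obtain ⟨r, hr, X, -, hX⟩ := loc_root (hI c hc) (h0 c hc) (h1 c hc)
    obtain ⟨U, hU1, hU2, hU3⟩ := _root_.eventually_nhds_iff.1 hX
    exact ⟨U, r, X, hU2, hU3, hr, hU1⟩
  choose! U r X hUo hcU hr hX using hl
  obtain ⟨t, htC, htf, htc⟩ := hC.elim_finite_subcover_image (b := C) (c := U) hUo
    (fun c hc => mem_iUnion₂_of_mem hc (hcU c hc))
  have htn : t.Nonempty := by
    obtain ⟨c, hc⟩ := hne
    obtain ⟨i, hi, -⟩ := mem_iUnion₂.1 (htc hc)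
    exact ⟨i, hi⟩
  obtain ⟨i₀, hi₀, hmin⟩ := htf.exists_minimalFor r t htn
  have hmin' : ∀ i ∈ t, r i₀ ≤ r i := by
    intro i hi
    by_contra hlt
    rw [not_le] at hlt
    exact absurd (hmin hi hlt.le) (not_le.2 hlt)
  set δ := min δ₀ (r i₀) with hδ
  have hδ1 : 0 < δ := lt_min hδ₀ (hr i₀ (htC hi₀))
  have hδ2 : ∀ i ∈ t, ball x₀ δ ⊆ ball x₀ (r i) := fun i hi =>
    ball_subset_ball ((min_le_right _ _).trans (hmin' i hi))
  -- the open set on which one of the local roots lies in the small ball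
  set O : Set P := {c | ∃ i ∈ t, c ∈ U i ∧ X i c ∈ ball x₀ δ} with hO
  have hOo : IsOpen O := by
    rw [isOpen_iff_mem_nhds]
    rintro c ⟨i, hi, hc1, hc2⟩
    have h2 : ContinuousAt (X i) c := (hX i (htC hi) c hc1).1.continuousAt
    filter_upwards [(hUo i (htC hi)).mem_nhds hc1, h2 (isOpen_ball.mem_nhds hc2)] with c' h3 h4
    exact ⟨i, hi, h3, h4⟩
  have hCO : C ⊆ O := by
    intro c hc
    obtain ⟨i, hi, hci⟩ := mem_iUnion₂.1 (htc hc)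
    refine ⟨i, hi, hci, ?_⟩
    have := ((hX i (htC hi) c hci).2.2 x₀ (mem_ball_self (hr i (htC hi)))).2 (h0 c hc)
    rw [← this]
    exact mem_ball_self hδ1
  obtain ⟨ε, hε, hεO⟩ := hC.exists_thickening_subset_open hOo hCO
  choose! f hf1 hf2 hf3 using (fun c (hc : c ∈ O) => hc)
  have key : ∀ i ∈ t, ∀ j ∈ t, ∀ c, c ∈ U i → c ∈ U j → X j c ∈ ball x₀ δ → X j c = X i c := by
    intro i hi j hj c h2 h3 h4
    exact ((hX i (htC hi) c h2).2.2 (X j c) (hδ2 i hi h4)).2 (hX j (htC hj) c h3).2.1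
  refine ⟨δ, hδ1, min_le_left _ _, ε, hε, fun c => X (f c) c, fun c hc => ?_⟩
  have hcO : c ∈ O := hεO hc
  have hi := hf1 c hcO
  have hu := hf2 c hcO
  refine ⟨?_, hf3 c hcO, (hX _ (htC hi) c hu).2.1, fun x hx => ?_⟩
  · refine (hX _ (htC hi) c hu).1.congr ?_
    filter_upwards [(hUo _ (htC hi)).mem_nhds hu, hOo.mem_nhds hcO] with c' h2 h3
    exact (key _ hi _ (hf1 c' h3) c' h2 (hf2 c' h3) (hf3 c' h3)).symm
  · exact (hX _ (htC hi) c hu).2.2 x (hδ2 _ hi hx)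

/-- **continuation of roots**: `φ n → φ₀` uniformly on the compact set `K`, `x₀` a simple root of
`I (φ₀ z, ·)` for every `z ∈ K`. Then for all large `n` there is a root `τ z ∈ ball x₀ δ` of
`I (φ n z, ·)`, simple, unique in the ball, holomorphic where `φ n` is. -/
theorem cont_root {ι E : Type*} {l : Filter ι} [TopologicalSpace E] {I : P × ℂ → ℂ} {K : Set E}
    (hK : IsCompact K) {φ : ι → E → P} {φ₀ : E → P} (hφ₀ : ContinuousOn φ₀ K)
    (hφ : TendstoUniformlyOn φ φ₀ l K) {x₀ : ℂ} (hI : ∀ z ∈ K, AnalyticAt ℂ I (φ₀ z, x₀))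
    (h0 : ∀ z ∈ K, I (φ₀ z, x₀) = 0) (h1 : ∀ z ∈ K, deriv (fun x => I (φ₀ z, x)) x₀ ≠ 0)
    {δ₀ : ℝ} (hδ₀ : 0 < δ₀) :
    ∃ δ > 0, δ ≤ δ₀ ∧ ∃ X : P → ℂ, ∀ᶠ n in l, ∀ z ∈ K, AnalyticAt ℂ X (φ n z) ∧
      X (φ n z) ∈ ball x₀ δ ∧ I (φ n z, X (φ n z)) = 0 ∧
      deriv (fun x => I (φ n z, x)) (X (φ n z)) ≠ 0 ∧
      ∀ x ∈ ball x₀ δ, I (φ n z, x) = 0 → x = X (φ n z) := by
  obtain ⟨δ, hδ, hδ', ε, hε, X, hX⟩ := unif_root (hK.image_of_continuousOn hφ₀) (x₀ := x₀)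
    (by rintro _ ⟨z, hz, rfl⟩; exact hI z hz) (by rintro _ ⟨z, hz, rfl⟩; exact h0 z hz)
    (by rintro _ ⟨z, hz, rfl⟩; exact h1 z hz) hδ₀
  refine ⟨δ, hδ, hδ', X, ?_⟩
  filter_upwards [Metric.tendstoUniformlyOn_iff.1 hφ ε hε] with n hn z hz
  have hm : φ n z ∈ thickening ε (φ₀ '' K) :=
    mem_thickening_iff.2 ⟨φ₀ z, mem_image_of_mem _ hz, by rw [dist_comm]; exact hn z hz⟩
  obtain ⟨a, b, c, d⟩ := hX _ hm
  exact ⟨a, b, c, (d _ b).1, fun x hx => (d x hx).2⟩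

end Vale.Agent.P097.H420
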